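import Vale.Agent.P197.Defs
import Vale.Agent.P197.Glue
import Vale.Agent.P197.Strict5
import Vale.Agent.P197.PeelDiag

namespace Vale.Agent.Results.P197.BoundedDurfee

open Vale.Agent.P197

theorem result (m k : ℕ) (ν : YoungDiagram) (hcard : ν.card = m * (m + 1) / 2)
    (hdurfee : (k, k) ∉ ν) (hm : 2000 * (k ^ 2 * (Nat.log 2 k + 1)) ≤ m) :
    0 < kronecker (m * (m + 1) / 2) (staircase m) (staircase m) ν :=
  (peel_main' (peelClosed_good strictDominance) m k ν hcard hdurfee hm).2

end Vale.Agent.Results.P197.BoundedDurfee
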