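import Vale.Agent.P197.Defs
import Vale.Agent.P197.Sx.Form
import Vale.Agent.P197.Sx.Step
import Vale.Agent.P197.Sx.Peel
import Vale.Agent.P197.Sx.SurjOne
import Vale.Agent.P197.Sx.SFinal

namespace Vale.Agent.Results.P197.Saxl

open Vale.Agent.P197 Vale.Agent.P197.Sx

theorem result (m : ℕ) (ν : YoungDiagram) (hν : ν.card = m * (m + 1) / 2) :
    0 < kronecker (m * (m + 1) / 2) (staircase m) (staircase m) ν := by
  induction m generalizing ν with
  | zero => exact kronecker_pos_of_good (good_zero (by simpa using hν))
  | succ m ih =>
    by_cases h1 : m + 1 ≤ ν.rowLen 0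
    · obtain ⟨β, hle, hb, hs⟩ := exists_horizontal_strip m ν hν h1
      exact surj_one hb (ih β hb) hle hs hν
    · by_cases h2 : m + 1 ≤ ν.colLen 0
      · have hcT : ν.transpose.card = (m + 1) * (m + 2) / 2 := by
          rw [card_transpose]; exact hν
        obtain ⟨β, hle, hb, hs⟩ := exists_horizontal_strip m ν.transpose hcT
          (by rw [YoungDiagram.rowLen_transpose]; exact h2)
        have h3 := surj_one hb (ih β hb) hle hs hcT
        have h4 := kronecker_transpose (n := (m + 1) * (m + 2) / 2) (staircase (m + 1))
          (staircase (m + 1)) ν (card_staircase (m + 1)) hν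
        rw [staircase_transpose] at h4
        rw [← h4]
        exact h3
      · exact kronecker_pos_of_good (good_of_dom (m + 1) ν hν
          (dom_of_colLen_lt (m + 1) ν hν (by omega)))

end Vale.Agent.Results.P197.Saxl
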